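import Mathlib

/-!
Closure properties of finitely presented groups: extensions, finite products, subgroups of finite
index.
-/

namespace Vale.Agent.P192

open Subgroup

/-- A subgroup `M` of a group generated by `B` is normal as soon as conjugation by the elements of
`B` and by their inverses maps `M` into itself. -/
theorem normal_of_conj_generators {F : Type*} [Group F] (M : Subgroup F) (B : Set F)
    (hB : closure B = ⊤)
    (h1 : ∀ g ∈ B, ∀ m ∈ M, g * m * g⁻¹ ∈ M) (h2 : ∀ g ∈ B, ∀ m ∈ M, g⁻¹ * m * g ∈ M) :
    M.Normal := by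
  rw [← normalizer_eq_top_iff, eq_top_iff, ← hB, closure_le]
  intro g hg
  rw [SetLike.mem_coe, mem_normalizer_iff]
  intro h
  refine ⟨h1 g hg h, fun hh => ?_⟩
  have := h2 g hg _ hh
  simpa [mul_assoc] using this

/-- P. Hall: an extension of a finitely presented group by a finitely presented group is finitely
presented. -/
theorem isFinitelyPresented_of_extension {E Q : Type*} [Group E] [Group Q] (π : E →* Q)
    (hπ : Function.Surjective π) (hN : Group.IsFinitelyPresented π.ker)
    (hQ : Group.IsFinitelyPresented Q) : Group.IsFinitelyPresented E := by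
  classical
  obtain ⟨a, φN, hφN, SN, hSN, hkerN⟩ := hN.out
  obtain ⟨b, φQ, hφQ, SQ, hSQ, hkerQ⟩ := hQ.out
  choose lft hlft using hπ
  let gen : Fin a ⊕ Fin b → E :=
    Sum.elim (fun i => (φN (FreeGroup.of i) : E)) (fun j => lft (φQ (FreeGroup.of j)))
  let f : FreeGroup (Fin a ⊕ Fin b) →* E := FreeGroup.lift gen
  let ι : FreeGroup (Fin a) →* FreeGroup (Fin a ⊕ Fin b) := FreeGroup.map Sum.inl
  let j : FreeGroup (Fin b) →* FreeGroup (Fin a ⊕ Fin b) := FreeGroup.map Sum.inr
  let ρ : FreeGroup (Fin a ⊕ Fin b) →* FreeGroup (Fin b) :=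
    FreeGroup.lift (Sum.elim (fun _ => 1) FreeGroup.of)
  have hfι : f.comp ι = (π.ker.subtype).comp φN := by
    ext i
    simp [f, ι, gen]
  have hfι' : ∀ u, f (ι u) = (φN u : E) := fun u => DFunLike.congr_fun hfι u
  have hπf : π.comp f = φQ.comp ρ := by
    ext x
    rcases x with i | k
    · simp only [MonoidHom.comp_apply, f, ρ, gen, FreeGroup.lift_apply_of, Sum.elim_inl, map_one]
      exact (φN (FreeGroup.of i)).2
    · simp only [MonoidHom.comp_apply, f, ρ, gen, FreeGroup.lift_apply_of, Sum.elim_inr]
      exact hlft _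
  have hπf' : ∀ w, π (f w) = φQ (ρ w) := fun w => DFunLike.congr_fun hπf w
  have hρj : ∀ v, ρ (j v) = v := by
    intro v
    have : ρ.comp j = MonoidHom.id _ := by
      ext k
      simp [ρ, j]
    exact DFunLike.congr_fun this v
  -- words for elements of the kernel
  have hword : ∀ e : E, ∃ u : FreeGroup (Fin a), e ∈ π.ker → (φN u : E) = e := by
    intro e
    by_cases he : e ∈ π.ker
    · obtain ⟨u, hu⟩ := hφN ⟨e, he⟩
      exact ⟨u, fun _ => by rw [hu]⟩
    · exact ⟨1, fun h => absurd h he⟩
  choose word hword using hword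
  let rel : FreeGroup (Fin a ⊕ Fin b) → FreeGroup (Fin a ⊕ Fin b) :=
    fun z => z * (ι (word (f z)))⁻¹
  have hrel : ∀ z, f z ∈ π.ker → f (rel z) = 1 := by
    intro z hz
    simp only [rel, map_mul, map_inv, hfι', hword _ hz, mul_inv_cancel]
  let Z : Set (FreeGroup (Fin a ⊕ Fin b)) :=
    j '' SQ ∪
    Set.range (fun p : Fin a × Fin b =>
      FreeGroup.of (Sum.inr p.2) * FreeGroup.of (Sum.inl p.1) * (FreeGroup.of (Sum.inr p.2))⁻¹) ∪
    Set.range (fun p : Fin a × Fin b =>
      (FreeGroup.of (Sum.inr p.2))⁻¹ * FreeGroup.of (Sum.inl p.1) * FreeGroup.of (Sum.inr p.2))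
  have hZfin : Z.Finite :=
    ((hSQ.image _).union (Set.finite_range _)).union (Set.finite_range _)
  have hSQker : ∀ s ∈ SQ, φQ s = 1 := by
    intro s hs
    have : s ∈ φQ.ker := hkerQ ▸ subset_normalClosure hs
    exact this
  have hinl_ker : ∀ i : Fin a, f (FreeGroup.of (Sum.inl i)) ∈ π.ker := by
    intro i
    rw [MonoidHom.mem_ker, hπf']
    simp [ρ]
  have hZker : ∀ z ∈ Z, f z ∈ π.ker := by
    rintro z ((⟨s, hs, rfl⟩ | ⟨p, rfl⟩) | ⟨p, rfl⟩)
    · rw [MonoidHom.mem_ker, hπf', hρj, hSQker s hs]
    · simp only [map_mul, map_inv]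
      exact (inferInstance : π.ker.Normal).conj_mem _ (hinl_ker p.1) _
    · simp only [map_mul, map_inv]
      exact (inferInstance : π.ker.Normal).conj_mem' _ (hinl_ker p.1) _
  let R : Set (FreeGroup (Fin a ⊕ Fin b)) := ι '' SN ∪ rel '' Z
  have hRfin : R.Finite := (hSN.image _).union (hZfin.image _)
  let K : Subgroup (FreeGroup (Fin a ⊕ Fin b)) := normalClosure R
  have hKle : K ≤ f.ker := by
    refine normalClosure_le_normal ?_
    rintro r (⟨s, hs, rfl⟩ | ⟨z, hz, rfl⟩)
    · have : s ∈ φN.ker := hkerN ▸ subset_normalClosure hs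
      rw [SetLike.mem_coe, MonoidHom.mem_ker, hfι', MonoidHom.mem_ker.mp this]
      rfl
    · exact hrel z (hZker z hz)
  let M : Subgroup (FreeGroup (Fin a ⊕ Fin b)) := ι.range ⊔ K
  have hιM : ∀ u, ι u ∈ M := fun u => mem_sup_left ⟨u, rfl⟩
  have hKM : K ≤ M := le_sup_right
  have hZM : ∀ z ∈ Z, z ∈ M := by
    intro z hz
    have h1 : rel z ∈ M := hKM (subset_normalClosure (Or.inr ⟨z, hz, rfl⟩))
    have h2 : z = rel z * ι (word (f z)) := by simp [rel]
    rw [h2]
    exact M.mul_mem h1 (hιM _)
  have hrange : ι.range = closure (Set.range (fun i : Fin a => FreeGroup.of (Sum.inl i) :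
      Fin a → FreeGroup (Fin a ⊕ Fin b))) := by
    rw [MonoidHom.range_eq_map, ← FreeGroup.closure_range_of, MonoidHom.map_closure,
      ← Set.range_comp]
    congr 1
  -- conjugation by a fixed element preserving the generators of `M` preserves `M`
  have hconj : ∀ g : FreeGroup (Fin a ⊕ Fin b),
      (∀ i : Fin a, g * FreeGroup.of (Sum.inl i) * g⁻¹ ∈ M) → ∀ m ∈ M, g * m * g⁻¹ ∈ M := by
    intro g hg
    have : M ≤ M.comap (MulAut.conj g).toMonoidHom := by
      refine sup_le ?_ ?_
      · rw [hrange, closure_le]
        rintro _ ⟨i, rfl⟩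
        exact hg i
      · intro k hk
        exact hKM ((inferInstance : K.Normal).conj_mem k hk g)
    exact fun m hm => this hm
  have hMnormal : M.Normal := by
    refine normal_of_conj_generators M _ (FreeGroup.closure_range_of _) ?_ ?_
    · rintro _ ⟨x, rfl⟩
      refine hconj _ fun i => ?_
      rcases x with i' | k
      · have : FreeGroup.of (Sum.inl i') * FreeGroup.of (Sum.inl i) * (FreeGroup.of (Sum.inl i'))⁻¹
            = ι (FreeGroup.of i' * FreeGroup.of i * (FreeGroup.of i')⁻¹) := by simp [ι]
        rw [this]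
        exact hιM _
      · exact hZM _ (Or.inl (Or.inr ⟨(i, k), rfl⟩))
    · rintro _ ⟨x, rfl⟩
      intro m hm
      have := hconj (FreeGroup.of x)⁻¹ (fun i => ?_) m hm
      · simpa using this
      rw [inv_inv]
      rcases x with i' | k
      · have : (FreeGroup.of (Sum.inl i'))⁻¹ * FreeGroup.of (Sum.inl i) * FreeGroup.of (Sum.inl i')
            = ι ((FreeGroup.of i')⁻¹ * FreeGroup.of i * FreeGroup.of i') := by simp [ι]
        rw [this]
        exact hιM _
      · exact hZM _ (Or.inr ⟨(i, k), rfl⟩)
  -- modulo `M` every word is equal to its `Q`-part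
  have hmod : (QuotientGroup.mk' M) = (QuotientGroup.mk' M).comp (j.comp ρ) := by
    ext x
    rcases x with i | k
    · simp only [MonoidHom.comp_apply, ρ, FreeGroup.lift_apply_of, Sum.elim_inl, map_one]
      rw [QuotientGroup.mk'_apply, QuotientGroup.eq_one_iff]
      have : FreeGroup.of (Sum.inl i) = ι (FreeGroup.of i) := by simp [ι]
      rw [this]
      exact hιM _
    · simp [ρ, j]
  have hjM : normalClosure SQ ≤ M.comap j := by
    refine normalClosure_le_normal ?_
    intro s hs
    exact hZM _ (Or.inl (Or.inl ⟨s, hs, rfl⟩))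
  have hker : f.ker = K := by
    refine le_antisymm ?_ hKle
    intro w hw
    have h1 : ρ w ∈ normalClosure SQ := by
      rw [hkerQ, MonoidHom.mem_ker, ← hπf', MonoidHom.mem_ker.mp hw, map_one]
    have h2 : j (ρ w) ∈ M := hjM h1
    have h3 : w ∈ M := by
      rw [← QuotientGroup.eq_one_iff, ← QuotientGroup.mk'_apply, hmod, MonoidHom.comp_apply,
        QuotientGroup.mk'_apply, QuotientGroup.eq_one_iff]
      exact h2
    obtain ⟨y, ⟨u, rfl⟩, k, hk, rfl⟩ := mem_sup_of_normal_right.mp h3
    have h4 : f (ι u) = 1 := by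
      have := MonoidHom.mem_ker.mp hw
      rwa [map_mul, MonoidHom.mem_ker.mp (hKle hk), mul_one] at this
    have h5 : u ∈ normalClosure SN := by
      rw [hkerN, MonoidHom.mem_ker]
      apply Subtype.ext
      rw [← hfι', h4]
      rfl
    have h6 : ι u ∈ K := by
      have := comap_normalClosure_image_ge SN ι h5
      exact normalClosure_mono Set.subset_union_left this
    exact K.mul_mem h6 hk
  have hsurj : Function.Surjective f := by
    intro e
    obtain ⟨v, hv⟩ := hφQ (π e)
    have h1 : (f (j v))⁻¹ * e ∈ π.ker := by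
      rw [MonoidHom.mem_ker, map_mul, map_inv, hπf', hρj, hv, inv_mul_cancel]
    obtain ⟨u, hu⟩ := hφN ⟨_, h1⟩
    refine ⟨j v * ι u, ?_⟩
    rw [map_mul, hfι', hu]
    simp
  exact Group.IsFinitelyPresented.of_surjective f hsurj ⟨R, hRfin, hker.symm⟩

/-- Exact sequence form of `isFinitelyPresented_of_extension`. -/
theorem isFinitelyPresented_of_exact {N E Q : Type*} [Group N] [Group E] [Group Q]
    (i : N →* E) (π : E →* Q) (hi : Function.Injective i) (hπ : Function.Surjective π)
    (hex : i.range = π.ker) (hN : Group.IsFinitelyPresented N)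
    (hQ : Group.IsFinitelyPresented Q) : Group.IsFinitelyPresented E := by
  have e : N ≃* π.ker := (MonoidHom.ofInjective hi).trans (MulEquiv.subgroupCongr hex)
  exact isFinitelyPresented_of_extension π hπ (Group.IsFinitelyPresented.equiv e) hQ

/-- A finite power of a finitely presented group is finitely presented. -/
theorem isFinitelyPresented_pi {G : Type*} [Group G] (hG : Group.IsFinitelyPresented G)
    (ι : Type) [Finite ι] : Group.IsFinitelyPresented (ι → G) := by
  classical
  induction ι using Finite.induction_empty_option with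
  | of_equiv e h =>
    exact @Group.IsFinitelyPresented.equiv _ _ _ _ (MulEquiv.arrowCongr e (MulEquiv.refl G)) h
  | h_empty => infer_instance
  | h_option h =>
    rename_i α _
    let π : (Option α → G) →* (α → G) :=
      { toFun := fun f a => f (some a)
        map_one' := rfl
        map_mul' := fun _ _ => rfl }
    refine isFinitelyPresented_of_exact (MonoidHom.mulSingle (fun _ : Option α => G) none) π
      (fun x y hxy => Pi.mulSingle_injective (M := fun _ : Option α => G) none hxy) ?_ ?_ hG h
    · intro f
      exact ⟨fun o => o.elim 1 f, rfl⟩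
    · ext f
      constructor
      · rintro ⟨g, rfl⟩
        rw [MonoidHom.mem_ker]
        funext a
        simp [π]
      · intro hf
        refine ⟨f none, ?_⟩
        funext o
        rcases o with _ | a
        · simp
        · have := congrFun (MonoidHom.mem_ker.mp hf) a
          simp only [MonoidHom.mulSingle_apply]
          rw [Pi.mulSingle_eq_of_ne (by simp)]
          exact this.symm

/-- A free group which is finitely generated has a finite basis. -/
theorem finite_of_fg_freeGroup {X : Type*} (h : Group.FG (FreeGroup X)) : Finite X := by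
  classical
  obtain ⟨S, hS⟩ := Group.fg_def.mp h
  let Y : Finset X := S.biUnion (fun s => (s.toWord.map Prod.fst).toFinset)
  have hY : ∀ x, x ∈ Y := by
    intro x
    by_contra hx
    let χ : FreeGroup X →* Multiplicative ℤ :=
      FreeGroup.lift (fun y => if y = x then Multiplicative.ofAdd 1 else 1)
    have h1 : ∀ s ∈ S, χ s = 1 := by
      intro s hs
      rw [← FreeGroup.mk_toWord (x := s)]
      simp only [χ, FreeGroup.lift_mk]
      apply List.prod_eq_one
      intro z hz
      obtain ⟨p, hp, rfl⟩ := List.mem_map.mp hz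
      have hpx : p.1 ≠ x := by
        rintro rfl
        apply hx
        exact Finset.mem_biUnion.mpr ⟨s, hs, List.mem_toFinset.mpr (List.mem_map.mpr ⟨p, hp, rfl⟩)⟩
      rcases p with ⟨p1, _ | _⟩ <;> simp_all
    have h2 : ∀ w : FreeGroup X, χ w = 1 := by
      intro w
      have hw : w ∈ closure (S : Set (FreeGroup X)) := hS ▸ mem_top w
      have : closure (S : Set (FreeGroup X)) ≤ χ.ker := by
        rw [closure_le]
        exact fun s hs => h1 s hs
      exact this hw
    have h3 := h2 (FreeGroup.of x)
    simp only [χ, FreeGroup.lift_apply_of, if_true] at h3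
    exact absurd (Multiplicative.ofAdd.injective (h3.trans ofAdd_zero.symm)) one_ne_zero
  exact @Finite.of_fintype X ⟨Y, hY⟩

/-- If `E` has finite index in `F` and contains the normal closure (in `F`) of a finite set, then
this normal closure is the normal closure in `E` of a finite set. -/
theorem isFinitelyNormallyGenerated_subgroupOf {F : Type*} [Group F] (E : Subgroup F)
    [E.FiniteIndex] (S : Set F) (hS : S.Finite) (hSE : normalClosure S ≤ E) :
    ((normalClosure S).subgroupOf E).IsFinitelyNormallyGenerated := by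
  classical
  let T : Set F := Set.range (Quotient.out : F ⧸ E → F)
  have hfq : Finite (F ⧸ E) := inferInstance
  have hT : T.Finite := @Set.finite_range _ _ _ hfq
  let ST : Set F := (fun p : F × F => p.1⁻¹ * p.2 * p.1) '' (T ×ˢ S)
  have hST : ST.Finite := (hT.prod hS).image _
  have hSTle : ST ⊆ normalClosure S := by
    rintro _ ⟨⟨r, s⟩, ⟨-, hs⟩, rfl⟩
    exact (inferInstance : (normalClosure S).Normal).conj_mem' s (subset_normalClosure hs) r
  let SE : Set E := Subtype.val ⁻¹' ST
  have hSE' : SE.Finite := hST.preimage Subtype.val_injective.injOn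
  refine ⟨SE, hSE', le_antisymm ?_ ?_⟩
  · refine normalClosure_le_normal ?_
    intro x hx
    exact hSTle hx
  · have key : normalClosure S ≤ (normalClosure SE).map E.subtype := by
      rw [normalClosure, closure_le]
      intro x hx
      obtain ⟨s, hs, hsx⟩ := Group.mem_conjugatesOfSet_iff.mp hx
      obtain ⟨g, rfl⟩ := isConj_iff.mp hsx
      set r : F := (Quotient.out (QuotientGroup.mk g⁻¹ : F ⧸ E)) with hr
      have he : r⁻¹ * g⁻¹ ∈ E := by
        rw [← QuotientGroup.eq, hr]
        exact QuotientGroup.out_eq' _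
      have hmem : r⁻¹ * s * r ∈ ST := ⟨(r, s), ⟨⟨_, rfl⟩, hs⟩, rfl⟩
      have hmemE : r⁻¹ * s * r ∈ E := hSE (hSTle hmem)
      let y : E := ⟨r⁻¹ * s * r, hmemE⟩
      let e : E := ⟨r⁻¹ * g⁻¹, he⟩
      have hy : y ∈ normalClosure SE := subset_normalClosure hmem
      refine ⟨e⁻¹ * y * e, (inferInstance : (normalClosure SE).Normal).conj_mem' y hy e, ?_⟩
      simp only [y, e, Subgroup.subtype_apply, Subgroup.coe_mul, Subgroup.coe_inv]
      group
    intro x hx
    obtain ⟨y, hy, hyx⟩ := key (mem_subgroupOf.mp hx)
    have : y = x := Subtype.ext hyx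
    exact this ▸ hy

/-- Reidemeister-Schreier: a subgroup of finite index in a finitely presented group is finitely
presented. -/
theorem isFinitelyPresented_of_finiteIndex {G : Type*} [Group G]
    (hG : Group.IsFinitelyPresented G) (H : Subgroup G) [H.FiniteIndex] :
    Group.IsFinitelyPresented H := by
  classical
  obtain ⟨n, φ, hφ, S, hS, hker⟩ := hG.out
  let E : Subgroup (FreeGroup (Fin n)) := H.comap φ
  have hEfi : E.FiniteIndex := ⟨by
    rw [index_comap_of_surjective H hφ]
    exact FiniteIndex.index_ne_zero⟩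
  have hEfg : Group.FG E := inferInstance
  have hfin : Finite (IsFreeGroup.Generators E) := by
    apply finite_of_fg_freeGroup
    exact Group.fg_of_surjective (f := (IsFreeGroup.toFreeGroup E).toMonoidHom)
      (IsFreeGroup.toFreeGroup E).surjective
  have hEfp : Group.IsFinitelyPresented E :=
    Group.IsFinitelyPresented.equiv (IsFreeGroup.toFreeGroup E).symm
  have hle : normalClosure S ≤ E := by
    rw [hker]
    intro x hx
    change φ x ∈ H
    rw [MonoidHom.mem_ker.mp hx]
    exact H.one_mem
  have hkerψ : (φ.subgroupComap H).ker = (normalClosure S).subgroupOf E := by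
    ext x
    rw [MonoidHom.mem_ker, mem_subgroupOf, hker, MonoidHom.mem_ker]
    constructor
    · intro h
      exact congrArg Subtype.val h
    · intro h
      exact Subtype.ext h
  exact Group.IsFinitelyPresented.of_surjective (φ.subgroupComap H)
    (φ.subgroupComap_surjective_of_surjective H hφ)
    (hkerψ ▸ isFinitelyNormallyGenerated_subgroupOf E S hS hle)

end Vale.Agent.P192
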