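import Vale.Agent.P192.FinPres

/-!
The two-generator trick: inside the regular wreath product of `G` with a finite cyclic group, the
subgroup generated by the top generator and one base element with `Sidon` support has finite index.
-/

namespace Vale.Agent.P192

open Subgroup
open scoped commutatorElement

/-- A normal subgroup containing the commutators of the members of a generating set contains the
commutator subgroup. -/
theorem commutator_le_of_generators {G : Type*} [Group G] (N : Subgroup G) [N.Normal] (B : Set G)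
    (hB : closure B = ⊤) (h : ∀ x ∈ B, ∀ y ∈ B, ⁅x, y⁆ ∈ N) : commutator G ≤ N := by
  let π := QuotientGroup.mk' N
  have hπ : ∀ x y : G, ⁅x, y⁆ ∈ N ↔ π x * π y = π y * π x := by
    intro x y
    rw [← commutatorElement_eq_one_iff_mul_comm, ← map_commutatorElement,
      QuotientGroup.mk'_apply, QuotientGroup.eq_one_iff]
  have h1 : ∀ g : G, ∀ b ∈ B, π b * π g = π g * π b := by
    intro g
    have : closure B ≤ (centralizer (π '' B)).comap π := by
      rw [closure_le]
      intro x hx
      change π x ∈ centralizer (π '' B)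
      rw [mem_centralizer_iff]
      rintro _ ⟨y, hy, rfl⟩
      exact (hπ y x).mp (h y hy x hx)
    have hg : π g ∈ centralizer (π '' B) := this (hB ▸ mem_top g)
    intro b hb
    exact mem_centralizer_iff.mp hg _ ⟨b, hb, rfl⟩
  have h2 : ∀ g g' : G, π g' * π g = π g * π g' := by
    intro g
    have : closure B ≤ (centralizer {π g}).comap π := by
      rw [closure_le]
      intro x hx
      change π x ∈ centralizer {π g}
      rw [mem_centralizer_iff]
      rintro _ rfl
      exact (h1 g x hx).symm
    intro g'
    have hg : π g' ∈ centralizer {π g} := this (hB ▸ mem_top g')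
    exact (mem_centralizer_iff.mp hg _ rfl).symm
  rw [_root_.commutator_def, commutator_le]
  intro x _ y _
  exact (hπ x y).mpr (h2 y x)

theorem pi_commutator_le {G Q : Type*} [Group G] [Group Q] [Finite Q] [DecidableEq Q]
    (a : Q → G) (ha : closure (Set.range a) = ⊤) (A : Set Q) (hA : ∀ q, q ∉ A → a q = 1)
    (hsidon : ∀ u ∈ A, ∀ v ∈ A, ∀ y ∈ A, ∀ z ∈ A, u * v⁻¹ = y * z⁻¹ → y ≠ z → u = y)
    (B : Subgroup (Q → G)) (hB : ∀ q : Q, (fun x => a (q⁻¹ * x)) ∈ B) :
    Subgroup.pi Set.univ (fun _ : Q => commutator G) ≤ B := by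
  rw [Subgroup.pi_le_iff]
  intro x
  rw [Subgroup.map_le_iff_le_comap]
  set C := B.comap (MonoidHom.mulSingle (fun _ : Q => G) x) with hC
  let s : Q → Q → G := fun y w => a ((x * y⁻¹)⁻¹ * w)
  have hs : ∀ y, s y ∈ B := fun y => hB _
  have hsx : ∀ y, s y x = a y := by
    intro y
    simp [s]
  have hconj1 : ∀ y c, Pi.mulSingle x (a y * c * (a y)⁻¹) = s y * Pi.mulSingle x c * (s y)⁻¹ := by
    intro y c
    funext w
    by_cases hw : w = x
    · subst hw
      simp [hsx]
    · simp [Pi.mulSingle_eq_of_ne hw]
  have hconj2 : ∀ y c, Pi.mulSingle x ((a y)⁻¹ * c * a y) = (s y)⁻¹ * Pi.mulSingle x c * s y := by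
    intro y c
    funext w
    by_cases hw : w = x
    · subst hw
      simp [hsx]
    · simp [Pi.mulSingle_eq_of_ne hw]
  have hCn : C.Normal := by
    refine normal_of_conj_generators C (Set.range a) ha ?_ ?_
    · rintro _ ⟨y, rfl⟩ c hc
      change Pi.mulSingle x (a y * c * (a y)⁻¹) ∈ B
      rw [hconj1]
      exact B.mul_mem (B.mul_mem (hs y) hc) (B.inv_mem (hs y))
    · rintro _ ⟨y, rfl⟩ c hc
      change Pi.mulSingle x ((a y)⁻¹ * c * a y) ∈ B
      rw [hconj2]
      exact B.mul_mem (B.mul_mem (B.inv_mem (hs y)) hc) (hs y)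
  refine commutator_le_of_generators C (Set.range a) ha ?_
  rintro _ ⟨y, rfl⟩ _ ⟨z, rfl⟩
  by_cases hyz : y = z
  · subst hyz
    rw [commutatorElement_self]
    exact C.one_mem
  by_cases hy : y ∈ A
  swap
  · rw [hA y hy, commutatorElement_one_left]
    exact C.one_mem
  by_cases hz : z ∈ A
  swap
  · rw [hA z hz, commutatorElement_one_right]
    exact C.one_mem
  have key : Pi.mulSingle x ⁅a y, a z⁆ = ⁅s y, s z⁆ := by
    funext w
    by_cases hw : w = x
    · subst hw
      simp [commutatorElement_def, hsx]
    · rw [Pi.mulSingle_eq_of_ne hw]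
      simp only [commutatorElement_def, Pi.mul_apply, Pi.inv_apply]
      by_cases hu : (x * y⁻¹)⁻¹ * w ∈ A
      swap
      · have h0 : s y w = 1 := hA _ hu
        simp [h0]
      by_cases hv : (x * z⁻¹)⁻¹ * w ∈ A
      swap
      · have h0 : s z w = 1 := hA _ hv
        simp [h0]
      exfalso
      have h1 := hsidon _ hu _ hv y hy z hz (by group) hyz
      apply hw
      have h2 : y * x⁻¹ * w = y := by simpa [mul_assoc] using h1
      have h3 : x⁻¹ * w = 1 := by
        have := congrArg (fun t => y⁻¹ * t) h2
        simpa [mul_assoc] using this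
      exact (inv_mul_eq_one.mp h3).symm
  change Pi.mulSingle x ⁅a y, a z⁆ ∈ B
  rw [key]
  exact commutator_mem_commutator (hs y) (hs z) |> fun h => (commutator_le_self B) h

section wreath

variable {G Q : Type*} [Group G] [Group Q]

/-- The embedding of the base group into the regular wreath product. -/
def base : (Q → G) →* RegularWreathProduct G Q where
  toFun f := ⟨f, 1⟩
  map_one' := rfl
  map_mul' f g := by ext <;> simp

@[simp] theorem base_left (f : Q → G) : (base f).left = f := rfl
@[simp] theorem base_right (f : Q → G) : (base f).right = 1 := rfl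

theorem base_injective : Function.Injective (base : (Q → G) → RegularWreathProduct G Q) := by
  intro f g h
  exact congrArg RegularWreathProduct.left h

theorem range_base :
    (base : (Q → G) →* RegularWreathProduct G Q).range = RegularWreathProduct.rightHom.ker := by
  ext w
  constructor
  · rintro ⟨f, rfl⟩
    rfl
  · intro hw
    refine ⟨w.left, ?_⟩
    ext
    · rfl
    · exact (MonoidHom.mem_ker.mp hw).symm

theorem conj_base (q : Q) (f : Q → G) :
    RegularWreathProduct.inl q * base f * (RegularWreathProduct.inl q)⁻¹ =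
      base (fun x => f (q⁻¹ * x)) := by
  ext <;> simp

/-- Functoriality of the regular wreath product in the bottom group. -/
def mapLeft {G' : Type*} [Group G'] (φ : G →* G') :
    RegularWreathProduct G Q →* RegularWreathProduct G' Q where
  toFun w := ⟨fun x => φ (w.left x), w.right⟩
  map_one' := by ext <;> simp
  map_mul' v w := by ext <;> simp

theorem isMulTorsion_pi {ι : Type*} [Finite ι] (h : IsMulTorsion G) : IsMulTorsion (ι → G) := by
  classical
  cases nonempty_fintype ι
  intro f
  have h1 : ∀ i, ∃ m : ℕ, 0 < m ∧ f i ^ m = 1 := fun i => isOfFinOrder_iff_pow_eq_one.mp (h (f i))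
  choose m hm hfm using h1
  refine isOfFinOrder_iff_pow_eq_one.mpr ⟨∏ i, m i, Finset.prod_pos fun i _ => hm i, ?_⟩
  funext i
  obtain ⟨c, hc⟩ := Finset.dvd_prod_of_mem m (Finset.mem_univ i)
  rw [Pi.pow_apply, hc, pow_mul, hfm, one_pow, Pi.one_apply]

theorem isMulTorsion_wreath [Finite Q] (h : IsMulTorsion G) :
    IsMulTorsion (RegularWreathProduct G Q) := by
  refine IsMulTorsion.extension_closed (f := RegularWreathProduct.rightHom) rfl
    isMulTorsion_of_finite ?_
  have e : (Q → G) ≃* (RegularWreathProduct.rightHom : RegularWreathProduct G Q →* Q).ker :=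
    (MonoidHom.ofInjective base_injective).trans (MulEquiv.subgroupCongr range_base)
  exact IsMulTorsion.of_surjective (f := e.toMonoidHom) e.surjective (isMulTorsion_pi h)

end wreath

theorem isFinitelyPresented_wreath {G : Type*} {Q : Type} [Group G] [Group Q] [Finite Q]
    (h : Group.IsFinitelyPresented G) : Group.IsFinitelyPresented (RegularWreathProduct G Q) :=
  isFinitelyPresented_of_exact base RegularWreathProduct.rightHom base_injective
    (fun q => ⟨RegularWreathProduct.inl q, rfl⟩) range_base (isFinitelyPresented_pi h Q)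
    inferInstance

/-- The finite index statement. -/
theorem finiteIndex_of_sidon {G Q : Type*} [Group G] [Group Q] [Finite Q]
    [Finite (Abelianization G)]
    (a : Q → G) (ha : closure (Set.range a) = ⊤) (A : Set Q) (hA : ∀ q, q ∉ A → a q = 1)
    (hsidon : ∀ u ∈ A, ∀ v ∈ A, ∀ y ∈ A, ∀ z ∈ A, u * v⁻¹ = y * z⁻¹ → y ≠ z → u = y)
    (H : Subgroup (RegularWreathProduct G Q)) (haH : base a ∈ H)
    (hQH : ∀ q : Q, RegularWreathProduct.inl q ∈ H) : H.FiniteIndex := by
  classical
  have h1 : Subgroup.pi Set.univ (fun _ : Q => commutator G) ≤ H.comap base := by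
    refine pi_commutator_le a ha A hA hsidon _ fun q => ?_
    change base (fun x => a (q⁻¹ * x)) ∈ H
    rw [← conj_base]
    exact H.mul_mem (H.mul_mem (hQH q) haH) (H.inv_mem (hQH q))
  have h2 : (mapLeft (Q := Q) (Abelianization.of : G →* Abelianization G)).ker ≤ H := by
    intro w hw
    have hw' := MonoidHom.mem_ker.mp hw
    have hr : w.right = 1 := congrArg RegularWreathProduct.right hw'
    have hl : ∀ x, w.left x ∈ commutator G := by
      intro x
      have := congrFun (congrArg RegularWreathProduct.left hw') x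
      rw [← Abelianization.ker_of, MonoidHom.mem_ker]
      exact this
    have hwb : w = base w.left := by
      ext
      · rfl
      · exact hr
    rw [hwb]
    exact h1 (fun x _ => hl x)
  exact finiteIndex_of_le h2

theorem sidon_nat {i j k l : ℕ} (h : 2 ^ i + 2 ^ l = 2 ^ k + 2 ^ j) (hkl : k ≠ l) : i = k := by
  have H : ∀ {a b : ℕ}, a < b → 2 * 2 ^ a ≤ 2 ^ b := by
    intro a b hab
    calc 2 * 2 ^ a = 2 ^ (a + 1) := by ring
      _ ≤ 2 ^ b := Nat.pow_le_pow_right (by norm_num) hab
  have P : ∀ a : ℕ, 0 < 2 ^ a := fun a => by positivity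
  have Pi := P i
  have Pj := P j
  have Pk := P k
  have Pl := P l
  rcases lt_trichotomy i k with hik | hik | hik
  · exfalso
    have h1 := H hik
    rcases lt_trichotomy l k with hlk | hlk | hlk
    · have h2 := H hlk
      omega
    · exact hkl hlk.symm
    · have h2 := H hlk
      rcases lt_trichotomy j l with hjl | hjl | hjl
      · have h3 := H hjl
        omega
      · subst hjl
        omega
      · have h3 := H hjl
        omega
  · exact hik
  · exfalso
    have h1 := H hik
    rcases lt_trichotomy j i with hji | hji | hji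
    · have h2 := H hji
      omega
    · subst hji
      have h3 : 2 ^ l = 2 ^ k := by omega
      exact hkl (Nat.pow_right_injective (le_refl 2) h3).symm
    · have h2 := H hji
      rcases lt_trichotomy l j with hlj | hlj | hlj
      · have h3 := H hlj
        omega
      · subst hlj
        omega
      · have h3 := H hlj
        omega

/-- From an infinite finitely presented periodic group one gets a two-generated one. -/
theorem exists_two_generated {G : Type} [Group G] (hfp : Group.IsFinitelyPresented G)
    (htor : IsMulTorsion G) (hinf : Infinite G) :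
    ∃ (H : Type) (_ : Group H), Group.IsFinitelyPresented H ∧ IsMulTorsion H ∧ Infinite H ∧
      ∃ a b : H, closure {a, b} = ⊤ := by
  classical
  obtain ⟨d, φ, hφ, -⟩ := hfp.out
  have hfg : Group.FG G := Group.fg_of_surjective hφ
  have hfgab : Group.FG (Abelianization G) :=
    Group.fg_of_surjective (f := Abelianization.of) (QuotientGroup.mk'_surjective _)
  have hab : Finite (Abelianization G) :=
    CommGroup.finite_of_fg_isMulTorsion _
      (IsMulTorsion.of_surjective (f := Abelianization.of) (QuotientGroup.mk'_surjective _) htor)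
  let n : ℕ := 2 ^ (d + 1)
  have hn : NeZero n := ⟨by positivity⟩
  let Q := Multiplicative (ZMod n)
  have hlt : ∀ i : Fin d, 2 * 2 ^ (i : ℕ) ≤ 2 ^ d := by
    intro i
    calc 2 * 2 ^ (i : ℕ) = 2 ^ ((i : ℕ) + 1) := by ring
      _ ≤ 2 ^ d := Nat.pow_le_pow_right (by norm_num) i.2
  have hn2 : n = 2 * 2 ^ d := by simp only [n]; ring
  let p : Fin d → Q := fun k => Multiplicative.ofAdd (((2 ^ (k : ℕ) : ℕ)) : ZMod n)
  have hp : Function.Injective p := by
    intro i j hij
    have h1 : (((2 ^ (i : ℕ) : ℕ)) : ZMod n) = ((2 ^ (j : ℕ) : ℕ) : ZMod n) :=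
      Multiplicative.ofAdd.injective hij
    rw [ZMod.natCast_eq_natCast_iff'] at h1
    have hi := hlt i
    have hj := hlt j
    have Pd : 0 < 2 ^ d := by positivity
    rw [Nat.mod_eq_of_lt (by omega), Nat.mod_eq_of_lt (by omega)] at h1
    exact Fin.ext (Nat.pow_right_injective (le_refl 2) h1)
  let g : Fin d → G := fun k => φ (FreeGroup.of k)
  have hg : closure (Set.range g) = ⊤ := by
    have : Set.range g = φ '' Set.range FreeGroup.of := by
      rw [← Set.range_comp]
      rfl
    rw [this, ← MonoidHom.map_closure, FreeGroup.closure_range_of, ← MonoidHom.range_eq_map,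
      MonoidHom.range_eq_top]
    exact hφ
  let a : Q → G := Function.extend p g 1
  have ha : closure (Set.range a) = ⊤ := by
    rw [eq_top_iff, ← hg]
    apply Subgroup.closure_mono
    rintro _ ⟨k, rfl⟩
    exact ⟨p k, hp.extend_apply g 1 k⟩
  have hA : ∀ q, q ∉ Set.range p → a q = 1 := by
    intro q hq
    exact Function.extend_apply' g (1 : Q → G) q hq
  have hsidon : ∀ u ∈ Set.range p, ∀ v ∈ Set.range p, ∀ y ∈ Set.range p, ∀ z ∈ Set.range p,
      u * v⁻¹ = y * z⁻¹ → y ≠ z → u = y := by
    rintro _ ⟨i, rfl⟩ _ ⟨j, rfl⟩ _ ⟨k, rfl⟩ _ ⟨l, rfl⟩ h hne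
    have hkl : (k : ℕ) ≠ l := fun hh => hne (congrArg p (Fin.ext hh))
    have h1 : (((2 ^ (i : ℕ) : ℕ)) : ZMod n) - ((2 ^ (j : ℕ) : ℕ) : ZMod n) =
        ((2 ^ (k : ℕ) : ℕ) : ZMod n) - ((2 ^ (l : ℕ) : ℕ) : ZMod n) := by
      have := congrArg Multiplicative.toAdd h
      rw [sub_eq_add_neg, sub_eq_add_neg]
      exact this
    have h2 : (((2 ^ (i : ℕ) + 2 ^ (l : ℕ) : ℕ)) : ZMod n) =
        ((2 ^ (k : ℕ) + 2 ^ (j : ℕ) : ℕ) : ZMod n) := by
      rw [Nat.cast_add, Nat.cast_add]
      linear_combination h1
    rw [ZMod.natCast_eq_natCast_iff'] at h2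
    have hi := hlt i
    have hj := hlt j
    have hk := hlt k
    have hl := hlt l
    have Pd : 0 < 2 ^ d := by positivity
    rw [Nat.mod_eq_of_lt (by omega), Nat.mod_eq_of_lt (by omega)] at h2
    exact congrArg p (Fin.ext (sidon_nat h2 hkl))
  let t : Q := Multiplicative.ofAdd (1 : ZMod n)
  have ht : ∀ q : Q, ∃ m : ℕ, q = t ^ m := by
    intro q
    refine ⟨(Multiplicative.toAdd q).val, ?_⟩
    apply Multiplicative.toAdd.injective
    rw [toAdd_pow, toAdd_ofAdd, nsmul_eq_mul, mul_one, ZMod.natCast_zmod_val]
  let W := RegularWreathProduct G Q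
  let H : Subgroup W := closure {base a, RegularWreathProduct.inl t}
  have haH : base a ∈ H := subset_closure (by simp)
  have htH : RegularWreathProduct.inl t ∈ H := subset_closure (by simp)
  have hQH : ∀ q : Q, RegularWreathProduct.inl q ∈ H := by
    intro q
    obtain ⟨m, rfl⟩ := ht q
    rw [map_pow]
    exact H.pow_mem htH m
  have hfi : H.FiniteIndex := finiteIndex_of_sidon a ha (Set.range p) hA hsidon H haH hQH
  have hWfp : Group.IsFinitelyPresented W := isFinitelyPresented_wreath hfp
  have hWtor : IsMulTorsion W := isMulTorsion_wreath htor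
  have hWinf : Infinite W := by
    refine Infinite.of_injective (fun x : G => (base (Pi.mulSingle 1 x) : W)) ?_
    intro x y hxy
    exact Pi.mulSingle_injective (M := fun _ : Q => G) 1 (base_injective hxy)
  refine ⟨H, inferInstance, isFinitelyPresented_of_finiteIndex hWfp H, hWtor.subgroup H, ?_,
    ⟨base a, haH⟩, ⟨RegularWreathProduct.inl t, htH⟩, ?_⟩
  · have h1 := H.card_mul_index
    rw [Nat.card_eq_zero_of_infinite (α := W)] at h1
    rcases Nat.mul_eq_zero.mp h1 with h2 | h2
    · rcases Nat.card_eq_zero.mp h2 with h3 | h3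
      · exact (h3.false (1 : H)).elim
      · exact h3
    · exact absurd h2 FiniteIndex.index_ne_zero
  · have h1 := closure_closure_coe_preimage (k := ({base a, RegularWreathProduct.inl t} : Set W))
    rw [← h1]
    congr 1
    ext x
    simp [Subtype.ext_iff]

end Vale.Agent.P192
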